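import Vale.Agent.P034.Defs

namespace P034

open Finset

variable {X : Type} [Fintype X] [DecidableEq X]

namespace CountAux

/-- enumerations of a finite set -/
theorem card_enum (T : Finset X) (m : ℕ) (hT : T.card = m) :
    m.factorial ≤ ((univ : Finset (Fin m → X)).filter
      (fun e => Function.Injective e ∧ ∀ x, x ∈ T ↔ ∃ j, e j = x)).card := by
  classical
  have h1 : Fintype.card (Fin m ≃ T) = m.factorial := by
    have e0 : Fin m ≃ T := (T.equivFinOfCardEq hT).symm
    rw [Fintype.card_equiv e0, Fintype.card_fin]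
  rw [← h1, ← Finset.card_univ]
  refine Finset.card_le_card_of_injOn (fun e : Fin m ≃ T => fun j => ((e j : T) : X)) ?_ ?_
  · intro e _
    rw [Finset.mem_coe, Finset.mem_filter]
    refine ⟨Finset.mem_univ _, ?_, ?_⟩
    · intro i j hij
      exact e.injective (Subtype.ext hij)
    · intro x
      constructor
      · intro hx
        exact ⟨e.symm ⟨x, hx⟩, by simp⟩
      · rintro ⟨j, rfl⟩
        exact (e j).2
  · intro e _ e' _ hee
    ext j
    exact congrFun hee j

end CountAux

/- T5 -/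
theorem count_fixed (r : ℕ) (b : ℕ → ℕ) (D : (X → ℕ) → (ℕ → ℕ) → ℕ → Finset X)
    (hD : ∀ l' s i, (D l' s i).card ≤ b i * s i) (p : ℝ) (hp : 0 < p) (w : ℕ → ℝ)
    (hw : ∀ a ≤ r, 0 < w a) (l' : X → ℕ) (hl' : ∀ x, l' x ≤ r) (m : ℕ) :
    (m.factorial : ℝ) * ∑ l ∈ (labs X r).filter (fun l => Adm D l' l ∧ (low l' l).card = m),
        (∏ x, w (l x)) * p ^ m
      ≤ (∏ x, w (l' x)) *
        (m * ∑ a ∈ range r, (b a : ℝ) * (p * (∑ c ∈ Ioc a r, w c) / w a)) ^ m := by
  classical
  set A := (labs X r).filter (fun l => Adm D l' l ∧ (low l' l).card = m) with hA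
  set W : ℝ := ∏ x, w (l' x) with hW
  have hWpos : 0 < W := Finset.prod_pos fun x _ => hw _ (hl' x)
  let u : (Σ _ : ℕ, ℕ) → ℝ := fun t => p * w t.2 / w t.1
  let types : Finset (Σ _ : ℕ, ℕ) := (range r).sigma (fun a => Ioc a r)
  let s : (Fin m → (Σ _ : ℕ, ℕ)) → ℕ → ℕ := fun c i =>
    (univ.filter (fun j => (c j).1 ≤ i ∧ i < (c j).2)).card
  let En : (X → ℕ) → Finset (Fin m → X) := fun l =>
    univ.filter (fun e => Function.Injective e ∧ ∀ x, x ∈ low l' l ↔ ∃ j, e j = x)
  have hEn : ∀ l ∈ A, m.factorial ≤ (En l).card := by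
    intro l hl
    rw [hA, Finset.mem_filter] at hl
    exact CountAux.card_enum _ m hl.2.2
  let φ : (Σ _ : (X → ℕ), (Fin m → X)) → (Σ _ : (Fin m → (Σ _ : ℕ, ℕ)), (Fin m → X)) :=
    fun q => ⟨fun j => ⟨l' (q.2 j), q.1 (q.2 j)⟩, q.2⟩
  let f : (Σ _ : (Fin m → (Σ _ : ℕ, ℕ)), (Fin m → X)) → ℝ := fun q => W * ∏ j, u (q.1 j)
  let B : Finset (Σ _ : (Fin m → (Σ _ : ℕ, ℕ)), (Fin m → X)) :=
    (Fintype.piFinset fun _ : Fin m => types).sigma
      (fun c => Fintype.piFinset fun j => D l' (s c) (c j).1)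
  -- basic facts about members of `A`
  have hAle : ∀ l ∈ A, ∀ x, l x ≤ r := by
    intro l hl x
    rw [hA, Finset.mem_filter] at hl
    have := (Fintype.mem_piFinset.1 hl.1) x
    exact Nat.lt_succ_iff.1 (Finset.mem_range.1 this)
  have hAadm : ∀ l ∈ A, Adm D l' l := by
    intro l hl
    rw [hA, Finset.mem_filter] at hl
    exact hl.2.1
  have hupos : ∀ t ∈ types, 0 ≤ u t := by
    intro t ht
    rw [Finset.mem_sigma] at ht
    have h1 := Finset.mem_range.1 ht.1
    have h2 := Finset.mem_Ioc.1 ht.2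
    exact div_nonneg (mul_nonneg hp.le (hw _ h2.2).le) (hw _ (by omega)).le
  -- weight identity
  have hwt : ∀ l ∈ A, ∀ e ∈ En l, (∏ x, w (l x)) * p ^ m = f (φ ⟨l, e⟩) := by
    intro l hl e he
    have he' := (Finset.mem_filter.1 he).2
    have hlow : low l' l = univ.image e := by
      ext x
      rw [he'.2 x, Finset.mem_image]
      simp
    have h1 : ∏ x, w (l x) = W * ∏ x, (w (l x) / w (l' x)) := by
      rw [hW, ← Finset.prod_mul_distrib]
      refine Finset.prod_congr rfl fun x _ => ?_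
      have := (hw _ (hl' x)).ne'
      field_simp
    have h2 : ∏ x, (w (l x) / w (l' x)) = ∏ x ∈ low l' l, (w (l x) / w (l' x)) := by
      symm
      refine Finset.prod_subset (Finset.subset_univ _) fun x _ hx => ?_
      have h3 : ¬ l' x < l x := by
        intro h
        exact hx (Finset.mem_filter.2 ⟨Finset.mem_univ _, h⟩)
      have h4 : l x = l' x := le_antisymm (not_lt.1 h3) ((hAadm l hl).1 x)
      rw [h4]
      exact div_self (hw _ (hl' x)).ne'
    have h3 : ∏ x ∈ low l' l, (w (l x) / w (l' x)) = ∏ j, (w (l (e j)) / w (l' (e j))) := by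
      rw [hlow, Finset.prod_image]
      intro i _ j _ hij
      exact he'.1 hij
    have h4 : f (φ ⟨l, e⟩) = W * ∏ j, (p * (w (l (e j)) / w (l' (e j)))) := by
      show W * ∏ j, (p * w (l (e j)) / w (l' (e j))) = _
      congr 1
      refine Finset.prod_congr rfl fun j _ => ?_
      ring
    rw [h4, Finset.prod_mul_distrib, Finset.prod_const, Finset.card_univ, Fintype.card_fin, h1, h2,
      h3]
    ring
  -- the map lands in `B`
  have hmap : ∀ q ∈ A.sigma En, φ q ∈ B := by
    rintro ⟨l, e⟩ hq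
    rw [Finset.mem_sigma] at hq
    obtain ⟨hl, he⟩ := hq
    have he' := (Finset.mem_filter.1 he).2
    have hlt : ∀ j, l' (e j) < l (e j) := by
      intro j
      have : e j ∈ low l' l := (he'.2 _).2 ⟨j, rfl⟩
      exact (Finset.mem_filter.1 this).2
    have hcross : s (φ ⟨l, e⟩).1 = cross l' l := by
      funext i
      show (univ.filter (fun j => l' (e j) ≤ i ∧ i < l (e j))).card =
        (univ.filter (fun x => l' x ≤ i ∧ i < l x)).card
      rw [← Finset.card_image_of_injective _ he'.1]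
      congr 1
      ext x
      simp only [Finset.mem_image, Finset.mem_filter, Finset.mem_univ, true_and]
      constructor
      · rintro ⟨j, hj, rfl⟩
        exact hj
      · intro hx
        have : x ∈ low l' l := Finset.mem_filter.2 ⟨Finset.mem_univ _, lt_of_le_of_lt hx.1 hx.2⟩
        obtain ⟨j, rfl⟩ := (he'.2 x).1 this
        exact ⟨j, hx, rfl⟩
    show φ ⟨l, e⟩ ∈ B
    rw [Finset.mem_sigma]
    constructor
    · rw [Fintype.mem_piFinset]
      intro j
      show (⟨l' (e j), l (e j)⟩ : Σ _ : ℕ, ℕ) ∈ types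
      rw [Finset.mem_sigma]
      refine ⟨Finset.mem_range.2 (lt_of_lt_of_le (hlt j) (hAle l hl _)), ?_⟩
      exact Finset.mem_Ioc.2 ⟨hlt j, hAle l hl _⟩
    · rw [Fintype.mem_piFinset]
      intro j
      show e j ∈ D l' (s (φ ⟨l, e⟩).1) (l' (e j))
      rw [hcross]
      exact (hAadm l hl).2 _ (hlt j)
  -- injectivity
  have hinj : ∀ q ∈ A.sigma En, ∀ q' ∈ A.sigma En, φ q = φ q' → q = q' := by
    rintro ⟨l, e⟩ hq ⟨l₂, e₂⟩ hq' hφ
    rw [Finset.mem_sigma] at hq hq'
    obtain ⟨hl, he⟩ := hq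
    obtain ⟨hl₂, he₂⟩ := hq'
    have he' := (Finset.mem_filter.1 he).2
    have he₂' := (Finset.mem_filter.1 he₂).2
    have h1 : (fun j => (⟨l' (e j), l (e j)⟩ : Σ _ : ℕ, ℕ)) =
        fun j => ⟨l' (e₂ j), l₂ (e₂ j)⟩ := (Sigma.mk.inj_iff.1 hφ).1
    have h2 : e = e₂ := eq_of_heq (Sigma.mk.inj_iff.1 hφ).2
    subst h2
    have h3 : l = l₂ := by
      funext x
      by_cases hx : ∃ j, e j = x
      · obtain ⟨j, rfl⟩ := hx
        have := congrFun h1 j
        exact eq_of_heq (Sigma.mk.inj_iff.1 this).2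
      · have hx1 : x ∉ low l' l := fun h => hx ((he'.2 x).1 h)
        have hx2 : x ∉ low l' l₂ := fun h => hx ((he₂'.2 x).1 h)
        have e1 : l x = l' x := le_antisymm
          (not_lt.1 fun h => hx1 (Finset.mem_filter.2 ⟨Finset.mem_univ _, h⟩)) ((hAadm l hl).1 x)
        have e2 : l₂ x = l' x := le_antisymm
          (not_lt.1 fun h => hx2 (Finset.mem_filter.2 ⟨Finset.mem_univ _, h⟩)) ((hAadm l₂ hl₂).1 x)
        rw [e1, e2]
    rw [h3]
  have hs : ∀ c i, s c i ≤ m := by
    intro c i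
    refine (Finset.card_filter_le _ _).trans ?_
    rw [Finset.card_univ, Fintype.card_fin]
  have hA0 : ∀ l ∈ A, 0 ≤ (∏ x, w (l x)) * p ^ m := by
    intro l hl
    exact mul_nonneg (Finset.prod_nonneg fun x _ => (hw _ (hAle l hl x)).le) (pow_nonneg hp.le _)
  calc (m.factorial : ℝ) * ∑ l ∈ A, (∏ x, w (l x)) * p ^ m
      = ∑ l ∈ A, (m.factorial : ℝ) * ((∏ x, w (l x)) * p ^ m) := Finset.mul_sum _ _ _
    _ ≤ ∑ l ∈ A, ((En l).card : ℝ) * ((∏ x, w (l x)) * p ^ m) := by
        refine Finset.sum_le_sum fun l hl => ?_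
        refine mul_le_mul_of_nonneg_right ?_ (hA0 l hl)
        exact_mod_cast hEn l hl
    _ = ∑ l ∈ A, ∑ e ∈ En l, f (φ ⟨l, e⟩) := by
        refine Finset.sum_congr rfl fun l hl => ?_
        rw [Finset.sum_congr rfl (fun e he => (hwt l hl e he).symm), Finset.sum_const,
          nsmul_eq_mul]
    _ = ∑ q ∈ A.sigma En, f (φ q) := by rw [Finset.sum_sigma]
    _ = ∑ q ∈ (A.sigma En).image φ, f q := by
        rw [Finset.sum_image]
        intro q hq q' hq' h
        exact hinj q hq q' hq' h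
    _ ≤ ∑ q ∈ B, f q := by
        refine Finset.sum_le_sum_of_subset_of_nonneg ?_ ?_
        · intro q hq
          obtain ⟨q', hq', rfl⟩ := Finset.mem_image.1 hq
          exact hmap q' hq'
        · intro q hq _
          rw [Finset.mem_sigma] at hq
          refine mul_nonneg hWpos.le (Finset.prod_nonneg fun j _ => ?_)
          exact hupos _ (Fintype.mem_piFinset.1 hq.1 j)
    _ = ∑ c ∈ Fintype.piFinset (fun _ : Fin m => types),
          ((Fintype.piFinset fun j => D l' (s c) (c j).1).card : ℝ) * (W * ∏ j, u (c j)) := by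
        rw [Finset.sum_sigma]
        refine Finset.sum_congr rfl fun c _ => ?_
        show ∑ _e ∈ Fintype.piFinset (fun j => D l' (s c) (c j).1), W * ∏ j, u (c j) = _
        rw [Finset.sum_const, nsmul_eq_mul]
    _ ≤ ∑ c ∈ Fintype.piFinset (fun _ : Fin m => types),
          W * ∏ j, ((m : ℝ) * ((b (c j).1 : ℝ) * u (c j))) := by
        refine Finset.sum_le_sum fun c hc => ?_
        have hc' := Fintype.mem_piFinset.1 hc
        rw [Fintype.card_piFinset]
        push_cast
        have h1 : (∏ j, ((D l' (s c) (c j).1).card : ℝ)) * ∏ j, u (c j) ≤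
            ∏ j, ((m : ℝ) * ((b (c j).1 : ℝ) * u (c j))) := by
          rw [← Finset.prod_mul_distrib]
          refine Finset.prod_le_prod (fun j _ => mul_nonneg (Nat.cast_nonneg _) (hupos _ (hc' j)))
            fun j _ => ?_
          have h2 : ((D l' (s c) (c j).1).card : ℝ) ≤ (m : ℝ) * (b (c j).1 : ℝ) := by
            have h3 : (D l' (s c) (c j).1).card ≤ m * b (c j).1 := by
              refine (hD _ _ _).trans ?_
              rw [mul_comm]
              exact Nat.mul_le_mul_right _ (hs _ _)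
            exact_mod_cast h3
          calc ((D l' (s c) (c j).1).card : ℝ) * u (c j)
              ≤ ((m : ℝ) * (b (c j).1 : ℝ)) * u (c j) :=
                mul_le_mul_of_nonneg_right h2 (hupos _ (hc' j))
            _ = _ := by ring
        calc (∏ j, ((D l' (s c) (c j).1).card : ℝ)) * (W * ∏ j, u (c j))
            = W * ((∏ j, ((D l' (s c) (c j).1).card : ℝ)) * ∏ j, u (c j)) := by ring
          _ ≤ _ := mul_le_mul_of_nonneg_left h1 hWpos.le
    _ = W * ∏ _j : Fin m, ∑ t ∈ types, ((m : ℝ) * ((b t.1 : ℝ) * u t)) := by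
        rw [← Finset.mul_sum, Finset.prod_univ_sum]
    _ = W * (m * ∑ a ∈ range r, (b a : ℝ) * (p * (∑ c ∈ Ioc a r, w c) / w a)) ^ m := by
        rw [Finset.prod_const, Finset.card_univ, Fintype.card_fin]
        congr 2
        rw [← Finset.mul_sum]
        congr 1
        show ∑ t ∈ (range r).sigma (fun a => Ioc a r), (b t.1 : ℝ) * (p * w t.2 / w t.1) = _
        rw [Finset.sum_sigma]
        refine Finset.sum_congr rfl fun a _ => ?_
        show ∑ c ∈ Ioc a r, (b a : ℝ) * (p * w c / w a) = _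
        rw [Finset.mul_sum, Finset.sum_div, Finset.mul_sum]

end P034
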