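import Vale.Agent.P034.Count

namespace P034

open Finset

variable {X : Type} [Fintype X] [DecidableEq X]

namespace CountTotalAux

theorem geom (N : ℕ) : ∑ m ∈ Icc 1 N, ((3 : ℝ) / 32) ^ m = 3 / 29 * (1 - (3 / 32) ^ N) := by
  induction N with
  | zero => simp
  | succ N ih =>
    rw [Finset.sum_Icc_succ_top (by omega), ih, pow_succ]
    ring

theorem fact_bound (m : ℕ) {σ : ℝ} (h0 : 0 ≤ σ) (h1 : σ ≤ 1 / 32) :
    ((m : ℝ) * σ) ^ m ≤ (m.factorial : ℝ) * (3 / 32) ^ m := by
  have hf : (0 : ℝ) < m.factorial := by exact_mod_cast Nat.factorial_pos m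
  have h2 : (m : ℝ) ^ m / (m.factorial : ℝ) ≤ Real.exp m :=
    Real.pow_div_factorial_le_exp (m : ℝ) (Nat.cast_nonneg m) m
  have h3 : Real.exp m ≤ 3 ^ m := by
    have : Real.exp (m : ℝ) = Real.exp 1 ^ m := by
      rw [← Real.exp_nat_mul, mul_one]
    rw [this]
    exact pow_le_pow_left₀ (Real.exp_pos _).le Real.exp_one_lt_three.le _
  have h4 : (m : ℝ) ^ m ≤ (m.factorial : ℝ) * 3 ^ m := by
    rw [div_le_iff₀ hf] at h2
    calc (m : ℝ) ^ m ≤ Real.exp m * m.factorial := h2
      _ ≤ 3 ^ m * m.factorial := mul_le_mul_of_nonneg_right h3 hf.le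
      _ = _ := by ring
  calc ((m : ℝ) * σ) ^ m = (m : ℝ) ^ m * σ ^ m := mul_pow _ _ _
    _ ≤ ((m.factorial : ℝ) * 3 ^ m) * (1 / 32) ^ m := by
        refine mul_le_mul h4 (pow_le_pow_left₀ h0 h1 _) (pow_nonneg h0 _) (by positivity)
    _ = (m.factorial : ℝ) * (3 / 32) ^ m := by
        rw [mul_assoc, ← mul_pow]
        norm_num

end CountTotalAux

/- T6 -/
theorem count_total (r : ℕ) (b : ℕ → ℕ) (D : (X → ℕ) → (ℕ → ℕ) → ℕ → Finset X)
    (hD : ∀ l' s i, (D l' s i).card ≤ b i * s i) (p : ℝ) (hp : 0 < p) (w : ℕ → ℝ)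
    (hw : ∀ a ≤ r, 0 < w a) (hsum : ∑ a ∈ range (r + 1), w a = 1)
    (hσ : ∑ a ∈ range r, (b a : ℝ) * (p * (∑ c ∈ Ioc a r, w c) / w a) ≤ 1 / 32) :
    ∑ l ∈ labs X r, (∏ x, w (l x)) *
      ∑ l' ∈ (labs X r).filter (fun l' => Adm D l' l ∧ l' ≠ l), p ^ (low l' l).card ≤ 1 / 8 := by
  have hσ0 : 0 ≤ ∑ a ∈ range r, (b a : ℝ) * (p * (∑ c ∈ Ioc a r, w c) / w a) := by
    refine Finset.sum_nonneg fun a ha => ?_
    have ha' := Finset.mem_range.1 ha
    refine mul_nonneg (Nat.cast_nonneg _) (div_nonneg (mul_nonneg hp.le ?_) (hw a ha'.le).le)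
    exact Finset.sum_nonneg fun c hc => (hw c (Finset.mem_Ioc.1 hc).2).le
  have hlab : ∀ l ∈ labs X r, ∀ x, l x ≤ r := by
    intro l hl x
    exact Nat.lt_succ_iff.1 (Finset.mem_range.1 ((Fintype.mem_piFinset.1 hl) x))
  have key : ∀ l' ∈ labs X r, ∑ l ∈ (labs X r).filter (fun l => Adm D l' l ∧ l' ≠ l),
      (∏ x, w (l x)) * p ^ (low l' l).card ≤ (∏ x, w (l' x)) * (1 / 8) := by
    intro l' hl'
    have hW : 0 < ∏ x, w (l' x) := Finset.prod_pos fun x _ => hw _ (hlab l' hl' x)
    have hmaps : ∀ l ∈ (labs X r).filter (fun l => Adm D l' l ∧ l' ≠ l),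
        (low l' l).card ∈ Icc 1 (Fintype.card X) := by
      intro l hl
      rw [Finset.mem_filter] at hl
      obtain ⟨-, hadm, hne⟩ := hl
      rw [Finset.mem_Icc]
      refine ⟨?_, Finset.card_le_univ _⟩
      rw [Nat.succ_le_iff, Finset.card_pos]
      by_contra hcon
      rw [Finset.not_nonempty_iff_eq_empty] at hcon
      apply hne
      funext x
      refine le_antisymm (hadm.1 x) (not_lt.1 fun h => ?_)
      have : x ∈ low l' l := Finset.mem_filter.2 ⟨Finset.mem_univ _, h⟩
      rw [hcon] at this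
      exact absurd this (Finset.notMem_empty x)
    rw [← Finset.sum_fiberwise_of_maps_to hmaps]
    have hm : ∀ m ∈ Icc 1 (Fintype.card X),
        ∑ l ∈ ((labs X r).filter (fun l => Adm D l' l ∧ l' ≠ l)).filter
          (fun l => (low l' l).card = m), (∏ x, w (l x)) * p ^ (low l' l).card ≤
        (∏ x, w (l' x)) * (3 / 32) ^ m := by
      intro m _
      have hf : (0 : ℝ) < m.factorial := by exact_mod_cast Nat.factorial_pos m
      have h1 := count_fixed r b D hD p hp w hw l' (hlab l' hl') m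
      have h2 : ∑ l ∈ ((labs X r).filter (fun l => Adm D l' l ∧ l' ≠ l)).filter
          (fun l => (low l' l).card = m), (∏ x, w (l x)) * p ^ (low l' l).card ≤
          ∑ l ∈ (labs X r).filter (fun l => Adm D l' l ∧ (low l' l).card = m),
            (∏ x, w (l x)) * p ^ m := by
        have h3 : ∑ l ∈ ((labs X r).filter (fun l => Adm D l' l ∧ l' ≠ l)).filter
            (fun l => (low l' l).card = m), (∏ x, w (l x)) * p ^ (low l' l).card =
            ∑ l ∈ ((labs X r).filter (fun l => Adm D l' l ∧ l' ≠ l)).filter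
            (fun l => (low l' l).card = m), (∏ x, w (l x)) * p ^ m := by
          refine Finset.sum_congr rfl fun l hl => ?_
          rw [(Finset.mem_filter.1 hl).2]
        rw [h3]
        refine Finset.sum_le_sum_of_subset_of_nonneg ?_ ?_
        · intro l hl
          rw [Finset.mem_filter, Finset.mem_filter] at hl
          exact Finset.mem_filter.2 ⟨hl.1.1, hl.1.2.1, hl.2⟩
        · intro l hl _
          rw [Finset.mem_filter] at hl
          exact mul_nonneg (Finset.prod_nonneg fun x _ => (hw _ (hlab l hl.1 x)).le)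
            (pow_nonneg hp.le _)
      refine h2.trans ?_
      have h4 := CountTotalAux.fact_bound m hσ0 hσ
      have h5 := h1.trans (mul_le_mul_of_nonneg_left h4 hW.le)
      have h6 : (m.factorial : ℝ) * ∑ l ∈ (labs X r).filter
          (fun l => Adm D l' l ∧ (low l' l).card = m), (∏ x, w (l x)) * p ^ m ≤
          (m.factorial : ℝ) * ((∏ x, w (l' x)) * (3 / 32) ^ m) := by
        refine h5.trans (le_of_eq ?_)
        ring
      exact le_of_mul_le_mul_left h6 hf
    refine (Finset.sum_le_sum hm).trans ?_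
    rw [← Finset.mul_sum, CountTotalAux.geom]
    refine mul_le_mul_of_nonneg_left ?_ hW.le
    have : (0 : ℝ) ≤ (3 / 32) ^ (Fintype.card X) := by positivity
    linarith
  calc ∑ l ∈ labs X r, (∏ x, w (l x)) *
      ∑ l' ∈ (labs X r).filter (fun l' => Adm D l' l ∧ l' ≠ l), p ^ (low l' l).card
      = ∑ l ∈ labs X r, ∑ l' ∈ (labs X r).filter (fun l' => Adm D l' l ∧ l' ≠ l),
          (∏ x, w (l x)) * p ^ (low l' l).card := by
        refine Finset.sum_congr rfl fun l _ => ?_
        rw [Finset.mul_sum]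
    _ = ∑ l' ∈ labs X r, ∑ l ∈ (labs X r).filter (fun l => Adm D l' l ∧ l' ≠ l),
          (∏ x, w (l x)) * p ^ (low l' l).card := by
        refine Finset.sum_comm' ?_
        intro x y
        simp only [Finset.mem_filter]
        tauto
    _ ≤ ∑ l' ∈ labs X r, (∏ x, w (l' x)) * (1 / 8) := Finset.sum_le_sum key
    _ = 1 / 8 := by
        rw [← Finset.sum_mul]
        have : ∑ l' ∈ labs X r, ∏ x, w (l' x) = 1 := by
          unfold labs
          rw [← Finset.prod_univ_sum]
          simp [hsum]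
        rw [this, one_mul]

end P034
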