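import Mathlib

/-!
Shared definitions for P034 (integral against fractional expectation thresholds).
-/

namespace P034

open Finset

/-- The cost at `p` of a finite family of sets. -/
noncomputable def cost {X : Type} (p : ℝ) (G : Finset (Finset X)) : ℝ := ∑ S ∈ G, p ^ S.card

/-- `G` covers `F`: every member of `F` contains a member of `G`. -/
def Covers {X : Type} (G : Finset (Finset X)) (F : Set (Finset X)) : Prop :=
  ∀ H ∈ F, ∃ S ∈ G, S ⊆ H

/-- `F` is `p`-small: some cover has cost at most one half. -/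
def IsSmall {X : Type} (p : ℝ) (F : Set (Finset X)) : Prop :=
  ∃ G : Finset (Finset X), Covers G F ∧ cost p G ≤ 1 / 2

section Labels

variable {X : Type} [Fintype X] [DecidableEq X]

/-- All labellings of `X` by `0, …, r`. -/
def labs (X : Type) [Fintype X] [DecidableEq X] (r : ℕ) : Finset (X → ℕ) :=
  Fintype.piFinset (fun _ : X => range (r + 1))

/-- The set of elements whose label was lowered. -/
def low (l' l : X → ℕ) : Finset X := univ.filter (fun x => l' x < l x)

/-- Number of elements whose label crosses `i`. -/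
def cross (l' l : X → ℕ) (i : ℕ) : ℕ := (univ.filter (fun x => l' x ≤ i ∧ i < l x)).card

/-- Number of elements of `pre H k` with label above `i`. -/
def miss (pre : Finset X → ℕ → Finset X) (l : X → ℕ) (H : Finset X) (i k : ℕ) : ℕ :=
  ((pre H k).filter (fun x => i < l x)).card

/-- `H` is good for the labelling `l`. -/
def Good (pre : Finset X → ℕ → Finset X) (b : ℕ → ℕ) (l : X → ℕ) (H : Finset X) : Prop :=
  ∀ i k, k ≤ H.card → b i * miss pre l H i k ≤ k

/-- The pair `(l', l)` is admissible for the localisation `D`. -/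
def Adm (D : (X → ℕ) → (ℕ → ℕ) → ℕ → Finset X) (l' l : X → ℕ) : Prop :=
  (∀ x, l' x ≤ l x) ∧ ∀ x, l' x < l x → x ∈ D l' (cross l' l) (l' x)

noncomputable instance admDec (D : (X → ℕ) → (ℕ → ℕ) → ℕ → Finset X) (l' l : X → ℕ) :
    Decidable (Adm D l' l) := Classical.dec _

/-- The last bad index at level `i`. -/
def kk (pre : Finset X → ℕ → Finset X) (b : ℕ → ℕ) (l : X → ℕ) (H : Finset X) (i : ℕ) : ℕ :=
  Nat.findGreatest (fun k => k < b i * miss pre l H i k) H.card

open Classical in
/-- The repaired labelling. -/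
noncomputable def rep (pre : Finset X → ℕ → Finset X) (b : ℕ → ℕ) (l : X → ℕ) (H : Finset X) :
    X → ℕ :=
  fun x => if h : ∃ i, i < l x ∧ x ∈ pre H (kk pre b l H i) then Nat.find h else l x

/-- Completeness of `(l', s)` for `H`. -/
def Comp (pre : Finset X → ℕ → Finset X) (b : ℕ → ℕ) (l' : X → ℕ) (s : ℕ → ℕ) (H : Finset X) :
    Prop :=
  ∀ i, ∃ K, (∀ x ∈ pre H K, l' x ≤ i) ∧
    ∀ k, K < k → k ≤ H.card → b i * (miss pre l' H i k + s i) ≤ k

/-- `S` is good for the labelling `l`: all labels are below `r` and their sum is at most `|S|`. -/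
def SGood (r : ℕ) (l : X → ℕ) (S : Finset X) : Prop := (∀ x ∈ S, l x < r) ∧ ∑ x ∈ S, l x ≤ S.card

noncomputable instance sgoodDec (r : ℕ) (l : X → ℕ) (S : Finset X) :
    Decidable (SGood r l S) := Classical.dec _

/-- The weight of `x` in the `t`-uniform part of `g` below `H`. -/
noncomputable def lam (g : Finset X → ℝ) (t : ℕ) (H : Finset X) (x : X) : ℝ :=
  ∑ S ∈ (H.powersetCard t).filter (fun S => x ∈ S), g S

end Labels

end P034
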