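import Vale.Agent.P034.Defs

namespace P034

open Finset

variable {X : Type} [Fintype X] [DecidableEq X]

/- T10 -/
theorem expect_good (r : ℕ) (w : ℕ → ℝ) (hw : ∀ a ≤ r, 0 < w a)
    (hsum : ∑ a ∈ range (r + 1), w a = 1) (p : ℝ) (hp : 0 ≤ p)
    (hwp : ∀ a < r, w a ≤ 64 * 8 ^ (a + 1) * p) (S : Finset X) :
    ∑ l ∈ (labs X r).filter (fun l => SGood r l S), ∏ x, w (l x) ≤ (16384 * p) ^ S.card := by
  set φ : ℕ → ℝ := fun a => if a < r then 16 * (1 / 16) ^ a else 0 with hφ
  have hφ0 : ∀ a, 0 ≤ φ a := by
    intro a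
    simp only [hφ]
    split_ifs
    · positivity
    · exact le_rfl
  have hwl : ∀ l ∈ labs X r, ∀ x, 0 < w (l x) := by
    intro l hl x
    apply hw
    have := Fintype.mem_piFinset.1 hl x
    rw [mem_range] at this
    omega
  have hprod : ∀ l ∈ labs X r, 0 ≤ ∏ x, w (l x) := fun l hl =>
    prod_nonneg fun x _ => (hwl l hl x).le
  have h1 : ∑ l ∈ (labs X r).filter (fun l => SGood r l S), ∏ x, w (l x) ≤
      ∑ l ∈ labs X r, (∏ x, w (l x)) * ∏ x ∈ S, φ (l x) := by
    calc ∑ l ∈ (labs X r).filter (fun l => SGood r l S), ∏ x, w (l x)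
        ≤ ∑ l ∈ (labs X r).filter (fun l => SGood r l S), (∏ x, w (l x)) * ∏ x ∈ S, φ (l x) := by
          apply sum_le_sum
          intro l hl
          rw [mem_filter] at hl
          obtain ⟨hl1, hl2, hl3⟩ := hl
          have : 1 ≤ ∏ x ∈ S, φ (l x) := by
            calc (1 : ℝ) ≤ 16 ^ S.card * (1 / 16) ^ (∑ x ∈ S, l x) := by
                  rw [one_div, inv_pow, ← div_eq_mul_inv, le_div_iff₀ (by positivity), one_mul]
                  exact pow_le_pow_right₀ (by norm_num) hl3
              _ = ∏ x ∈ S, φ (l x) := by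
                  rw [← prod_const, ← prod_pow_eq_pow_sum, ← prod_mul_distrib]
                  apply prod_congr rfl
                  intro x hx
                  simp only [hφ]
                  rw [if_pos (hl2 x hx)]
          exact le_mul_of_one_le_right (hprod l hl1) this
      _ ≤ _ := by
          apply sum_le_sum_of_subset_of_nonneg (filter_subset _ _)
          intro l hl _
          exact mul_nonneg (hprod l hl) (prod_nonneg fun x _ => hφ0 _)
  have h2 : ∑ l ∈ labs X r, (∏ x, w (l x)) * ∏ x ∈ S, φ (l x) =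
      (∑ a ∈ range (r + 1), w a * φ a) ^ S.card := by
    have e1 : ∀ l : X → ℕ, (∏ x, w (l x)) * ∏ x ∈ S, φ (l x) =
        ∏ x, (w (l x) * if x ∈ S then φ (l x) else 1) := by
      intro l
      rw [prod_mul_distrib]
      congr 1
      rw [prod_ite_mem, univ_inter]
    simp_rw [e1]
    unfold labs
    rw [← Finset.prod_univ_sum (fun _ : X => range (r + 1))
      (fun x a => w a * if x ∈ S then φ a else 1)]
    have e2 : ∀ x : X, ∑ a ∈ range (r + 1), w a * (if x ∈ S then φ a else 1) =
        if x ∈ S then ∑ a ∈ range (r + 1), w a * φ a else 1 := by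
      intro x
      split_ifs
      · rfl
      · simp [hsum]
    simp_rw [e2]
    rw [prod_ite_mem, univ_inter, prod_const]
  have h3 : ∑ a ∈ range (r + 1), w a * φ a ≤ 16384 * p := by
    rw [sum_range_succ]
    have : φ r = 0 := by simp [hφ]
    rw [this, mul_zero, add_zero]
    calc ∑ a ∈ range r, w a * φ a ≤ ∑ a ∈ range r, 8192 * p * (1 / 2) ^ a := by
          apply sum_le_sum
          intro a ha
          rw [mem_range] at ha
          simp only [hφ]
          rw [if_pos ha]
          calc w a * (16 * (1 / 16) ^ a) ≤ (64 * 8 ^ (a + 1) * p) * (16 * (1 / 16) ^ a) := by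
                gcongr
                exact hwp a ha
            _ = 8192 * p * (8 ^ a * (1 / 16) ^ a) := by ring
            _ = 8192 * p * (1 / 2) ^ a := by
                rw [← mul_pow]; norm_num
      _ = 8192 * p * ∑ a ∈ range r, (1 / 2 : ℝ) ^ a := by rw [mul_sum]
      _ ≤ 8192 * p * 2 := by
          gcongr
          have := sum_geometric_two_le r
          simpa using this
      _ = _ := by ring
  have h4 : 0 ≤ ∑ a ∈ range (r + 1), w a * φ a := by
    apply sum_nonneg
    intro a ha
    rw [mem_range] at ha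
    exact mul_nonneg (hw a (by omega)).le (hφ0 a)
  calc _ ≤ _ := h1
    _ = _ := h2
    _ ≤ _ := pow_le_pow_left₀ h4 h3 _

end P034
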