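import Vale.Agent.P034.Defs

namespace P034

open Finset

variable {X : Type} [Fintype X] [DecidableEq X]

theorem gm_swap (g : Finset X → ℝ) (t : ℕ) (H : Finset X) (Q : X → Prop) [DecidablePred Q] :
    ∑ x ∈ H.filter Q, lam g t H x =
      ∑ S ∈ H.powersetCard t, g S * ((S.filter Q).card : ℝ) := by
  unfold lam
  rw [Finset.sum_comm' (s' := fun S => S.filter Q) (t' := H.powersetCard t)]
  · apply Finset.sum_congr rfl
    intro S _
    rw [Finset.sum_const, nsmul_eq_mul, mul_comm]
  · intro x S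
    simp only [Finset.mem_filter, Finset.mem_powersetCard]
    constructor
    · rintro ⟨⟨_, h2⟩, ⟨h3, h4⟩⟩
      exact ⟨⟨h4, h2⟩, h3⟩
    · rintro ⟨⟨h1, h2⟩, h3⟩
      exact ⟨⟨h3.1 h1, h2⟩, ⟨h3, h1⟩⟩

theorem gm_geom (r : ℕ) : ∑ i ∈ range r, (1 : ℝ) / 4 ^ (i + 1) ≤ 1 / 3 := by
  have h : ∀ r : ℕ, ∑ i ∈ range r, (1 : ℝ) / 4 ^ (i + 1) = 1 / 3 * (1 - 1 / 4 ^ r) := by
    intro r
    induction r with
    | zero => simp
    | succ r ih =>
      rw [Finset.sum_range_succ, ih, pow_succ]
      field_simp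
      ring
  rw [h]
  have : (0 : ℝ) < 1 / 4 ^ r := by positivity
  linarith

theorem gm_label (r : ℕ) (l : X → ℕ) (hl : ∀ x, l x ≤ r) (S : Finset X) :
    ∑ x ∈ S, l x = ∑ i ∈ range r, (S.filter (fun x => i < l x)).card := by
  simp only [Finset.card_filter]
  rw [Finset.sum_comm]
  apply Finset.sum_congr rfl
  intro x _
  rw [← Finset.card_filter]
  have : (range r).filter (fun i => i < l x) = range (l x) := by
    ext i
    simp only [Finset.mem_filter, Finset.mem_range]
    have := hl x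
    omega
  rw [this, Finset.card_range]

/- T9 -/
theorem good_mass (g : Finset X → ℝ) (hg : ∀ S, 0 ≤ g S) (t r : ℕ) (ht : 1 ≤ t) (l : X → ℕ)
    (hl : ∀ x, l x ≤ r) (H : Finset X) (hr : 4 * Fintype.card X ≤ 4 ^ r)
    (hgood : ∀ i, ((4 ^ (i + 1) : ℕ) : ℝ) * ∑ x ∈ H.filter (fun x => i < l x), lam g t H x
      ≤ ∑ x ∈ H, lam g t H x) :
    (1 / 3) * ∑ S ∈ H.powersetCard t, g S
      ≤ ∑ S ∈ (H.powersetCard t).filter (fun S => SGood r l S), g S := by
  set f := ∑ S ∈ H.powersetCard t, g S with hf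
  have hf0 : 0 ≤ f := Finset.sum_nonneg fun S _ => hg S
  have htR : (1 : ℝ) ≤ t := by exact_mod_cast ht
  by_cases hcard : t ≤ Fintype.card X
  swap
  · have hP : H.powersetCard t = ∅ := by
      rw [Finset.powersetCard_eq_empty]
      have := Finset.card_le_univ H
      omega
    rw [hf, hP]
    simp
  have hr1 : 1 ≤ r := by
    by_contra hc
    have : r = 0 := by omega
    rw [this, pow_zero] at hr
    omega
  -- the total
  have htot : ∑ x ∈ H, lam g t H x = t * f := by
    have h1 := gm_swap g t H (fun _ => True)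
    simp only [Finset.filter_true] at h1
    rw [h1, hf, Finset.mul_sum]
    apply Finset.sum_congr rfl
    intro S hS
    rw [(Finset.mem_powersetCard.1 hS).2, mul_comm]
  have hlev : ∀ i, ∑ S ∈ H.powersetCard t, g S * ((S.filter (fun x => i < l x)).card : ℝ) ≤
      (1 : ℝ) / 4 ^ (i + 1) * (t * f) := by
    intro i
    have h1 := hgood i
    rw [gm_swap, htot] at h1
    push_cast at h1
    have h4 : (0 : ℝ) < 4 ^ (i + 1) := by positivity
    rw [one_div, ← div_eq_inv_mul, le_div_iff₀ h4, mul_comm]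
    exact h1
  -- sum of labels
  have hsum : ∑ S ∈ H.powersetCard t, g S * ((∑ x ∈ S, l x : ℕ) : ℝ) ≤ 1 / 3 * (t * f) := by
    calc ∑ S ∈ H.powersetCard t, g S * ((∑ x ∈ S, l x : ℕ) : ℝ)
        = ∑ i ∈ range r, ∑ S ∈ H.powersetCard t, g S * ((S.filter (fun x => i < l x)).card : ℝ) := by
          rw [Finset.sum_comm]
          apply Finset.sum_congr rfl
          intro S _
          rw [gm_label r l hl S, ← Finset.mul_sum]
          push_cast
          rfl
      _ ≤ ∑ i ∈ range r, (1 : ℝ) / 4 ^ (i + 1) * (t * f) := Finset.sum_le_sum fun i _ => hlev i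
      _ = (∑ i ∈ range r, (1 : ℝ) / 4 ^ (i + 1)) * (t * f) := by rw [Finset.sum_mul]
      _ ≤ 1 / 3 * (t * f) := mul_le_mul_of_nonneg_right (gm_geom r) (by positivity)
  -- top label
  have htop : ∑ S ∈ H.powersetCard t, g S * ((S.filter (fun x => r - 1 < l x)).card : ℝ) ≤
      1 / 4 * f := by
    refine (hlev (r - 1)).trans ?_
    rw [Nat.sub_add_cancel hr1]
    have h4 : (0 : ℝ) < 4 ^ r := by positivity
    have h5 : 4 * (t : ℝ) ≤ 4 ^ r := by
      have : 4 * t ≤ 4 ^ r := (Nat.mul_le_mul_left 4 hcard).trans hr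
      exact_mod_cast this
    rw [one_div, ← mul_assoc]
    refine mul_le_mul_of_nonneg_right ?_ hf0
    rw [← div_eq_inv_mul, div_le_iff₀ h4]
    linarith
  -- pointwise
  have hpt : ∀ S ∈ H.powersetCard t, g S ≤ (if SGood r l S then g S else 0) +
      (1 / t * (g S * ((∑ x ∈ S, l x : ℕ) : ℝ)) +
        g S * ((S.filter (fun x => r - 1 < l x)).card : ℝ)) := by
    intro S hS
    have hSt := (Finset.mem_powersetCard.1 hS).2
    have h2 : 0 ≤ 1 / (t : ℝ) * (g S * ((∑ x ∈ S, l x : ℕ) : ℝ)) := by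
      have := hg S
      positivity
    have h3 : 0 ≤ g S * ((S.filter (fun x => r - 1 < l x)).card : ℝ) := by
      have := hg S
      positivity
    by_cases hS2 : SGood r l S
    · rw [if_pos hS2]
      linarith
    · rw [if_neg hS2, zero_add]
      unfold SGood at hS2
      rw [not_and_or] at hS2
      rcases hS2 with h4 | h4
      · push Not at h4
        obtain ⟨x, hx, hxr⟩ := h4
        have h5 : 1 ≤ (S.filter (fun x => r - 1 < l x)).card := by
          rw [Nat.one_le_iff_ne_zero, Finset.card_ne_zero]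
          exact ⟨x, Finset.mem_filter.2 ⟨hx, by omega⟩⟩
        have h6 : (1 : ℝ) ≤ ((S.filter (fun x => r - 1 < l x)).card : ℝ) := by exact_mod_cast h5
        have h7 : g S ≤ g S * ((S.filter (fun x => r - 1 < l x)).card : ℝ) :=
          le_mul_of_one_le_right (hg S) h6
        linarith
      · rw [not_le, hSt] at h4
        have h5 : (t : ℝ) ≤ ((∑ x ∈ S, l x : ℕ) : ℝ) := by exact_mod_cast h4.le
        have h6 : g S ≤ 1 / (t : ℝ) * (g S * ((∑ x ∈ S, l x : ℕ) : ℝ)) := by
          rw [one_div, ← div_eq_inv_mul, le_div_iff₀ (by linarith)]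
          exact mul_le_mul_of_nonneg_left h5 (hg S)
        linarith
  have hall := Finset.sum_le_sum hpt
  rw [Finset.sum_add_distrib, Finset.sum_add_distrib, ← Finset.sum_filter, ← Finset.mul_sum] at hall
  have hmul : 1 / (t : ℝ) * ∑ S ∈ H.powersetCard t, g S * ((∑ x ∈ S, l x : ℕ) : ℝ) ≤ 1 / 3 * f := by
    calc 1 / (t : ℝ) * ∑ S ∈ H.powersetCard t, g S * ((∑ x ∈ S, l x : ℕ) : ℝ)
        ≤ 1 / (t : ℝ) * (1 / 3 * (t * f)) := mul_le_mul_of_nonneg_left hsum (by positivity)
      _ = 1 / 3 * f := by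
        field_simp
  rw [← hf] at hall
  linarith

end P034
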