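import Vale.Agent.P034.Defs

namespace P034

open Finset

theorem exists_greatest_small {X : Type} [Fintype X] [DecidableEq X] (F : Set (Finset X))
    (hempty : ∅ ∉ F) : ∃ q : ℝ, IsGreatest {p : ℝ | 0 ≤ p ∧ p ≤ 1 ∧ IsSmall p F} q := by
  classical
  have hset : {p : ℝ | 0 ≤ p ∧ p ≤ 1 ∧ IsSmall p F}
      = Set.Icc 0 1 ∩ ⋃ G : Finset (Finset X), {p : ℝ | Covers G F ∧ cost p G ≤ 1 / 2} := by
    ext p
    simp only [Set.mem_setOf_eq, Set.mem_inter_iff, Set.mem_Icc, Set.mem_iUnion, IsSmall]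
    tauto
  have hclosed : IsClosed (⋃ G : Finset (Finset X), {p : ℝ | Covers G F ∧ cost p G ≤ 1 / 2}) := by
    refine isClosed_iUnion_of_finite (fun G => ?_)
    by_cases hG : Covers G F
    · have : {p : ℝ | Covers G F ∧ cost p G ≤ 1 / 2} = {p : ℝ | cost p G ≤ 1 / 2} := by
        ext p
        simp [hG]
      rw [this]
      refine isClosed_le ?_ continuous_const
      unfold cost
      fun_prop
    · have : {p : ℝ | Covers G F ∧ cost p G ≤ 1 / 2} = ∅ := by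
        ext p
        simp [hG]
      rw [this]
      exact isClosed_empty
  have hcompact : IsCompact {p : ℝ | 0 ≤ p ∧ p ≤ 1 ∧ IsSmall p F} := by
    rw [hset]
    exact isCompact_Icc.inter_right hclosed
  refine hcompact.exists_isGreatest ⟨0, le_refl _, zero_le_one,
    (univ : Finset (Finset X)).filter (fun S => S ≠ ∅), ?_, ?_⟩
  · intro H hH
    refine ⟨H, ?_, subset_refl _⟩
    rw [Finset.mem_filter]
    refine ⟨Finset.mem_univ _, ?_⟩
    rintro rfl
    exact hempty hH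
  · rw [cost, Finset.sum_eq_zero]
    · norm_num
    · intro S hS
      rw [Finset.mem_filter] at hS
      rw [zero_pow]
      rw [Ne, Finset.card_eq_zero]
      exact hS.2

theorem exists_greatest_frac {X : Type} [Fintype X] [DecidableEq X] (F : Set (Finset X))
    (hempty : ∅ ∉ F) : ∃ q : ℝ, IsGreatest {p : ℝ | 0 ≤ p ∧ p ≤ 1 ∧ ∃ g : Finset X → ℝ,
      (∀ S, 0 ≤ g S ∧ g S ≤ 1) ∧ (∀ H ∈ F, 1 ≤ ∑ S ∈ H.powerset, g S) ∧
      ∑ S, g S * p ^ S.card ≤ 1 / 2} q := by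
  classical
  have hset : {p : ℝ | 0 ≤ p ∧ p ≤ 1 ∧ ∃ g : Finset X → ℝ,
      (∀ S, 0 ≤ g S ∧ g S ≤ 1) ∧ (∀ H ∈ F, 1 ≤ ∑ S ∈ H.powerset, g S) ∧
      ∑ S, g S * p ^ S.card ≤ 1 / 2}
      = Prod.fst '' ((Set.Icc (0 : ℝ) 1 ×ˢ Set.Icc (0 : Finset X → ℝ) 1) ∩
        ((⋂ H ∈ F, {z : ℝ × (Finset X → ℝ) | 1 ≤ ∑ S ∈ H.powerset, z.2 S}) ∩
        {z : ℝ × (Finset X → ℝ) | ∑ S, z.2 S * z.1 ^ S.card ≤ 1 / 2})) := by
    ext p
    constructor
    · rintro ⟨h0, h1, g, hg, hc, hs⟩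
      refine ⟨(p, g), ⟨⟨⟨h0, h1⟩, ⟨fun S => (hg S).1, fun S => (hg S).2⟩⟩, ?_, hs⟩, rfl⟩
      simp only [Set.mem_iInter, Set.mem_setOf_eq]
      exact hc
    · rintro ⟨⟨p', g⟩, ⟨⟨⟨h0, h1⟩, ⟨hg0, hg1⟩⟩, hc, hs⟩, rfl⟩
      simp only [Set.mem_iInter, Set.mem_setOf_eq] at hc
      exact ⟨h0, h1, g, fun S => ⟨hg0 S, hg1 S⟩, hc, hs⟩
  have hcompact : IsCompact {p : ℝ | 0 ≤ p ∧ p ≤ 1 ∧ ∃ g : Finset X → ℝ,
      (∀ S, 0 ≤ g S ∧ g S ≤ 1) ∧ (∀ H ∈ F, 1 ≤ ∑ S ∈ H.powerset, g S) ∧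
      ∑ S, g S * p ^ S.card ≤ 1 / 2} := by
    rw [hset]
    refine IsCompact.image ?_ continuous_fst
    refine (isCompact_Icc.prod isCompact_Icc).inter_right ?_
    refine IsClosed.inter ?_ ?_
    · refine isClosed_biInter (fun H _ => ?_)
      refine isClosed_le continuous_const ?_
      fun_prop
    · refine isClosed_le ?_ continuous_const
      fun_prop
  refine hcompact.exists_isGreatest ⟨0, le_refl _, zero_le_one,
    (fun S => if S = ∅ then 0 else 1), ?_, ?_, ?_⟩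
  · intro S
    dsimp only
    split_ifs <;> norm_num
  · intro H hH
    have hne : H ≠ ∅ := by
      rintro rfl
      exact hempty hH
    have h := Finset.single_le_sum (f := fun S : Finset X => (if S = ∅ then (0 : ℝ) else 1))
      (s := H.powerset) (fun S _ => by split_ifs <;> norm_num)
      (Finset.mem_powerset.2 (subset_refl H))
    simpa [hne] using h
  · rw [Finset.sum_eq_zero]
    · norm_num
    · intro S _
      by_cases hS : S = ∅
      · simp [hS]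
      · have : S.card ≠ 0 := by
          rw [Ne, Finset.card_eq_zero]
          exact hS
        simp [this]

end P034
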