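import Vale.Agent.P034.Defs

namespace P034

open Finset

variable {X : Type} [Fintype X] [DecidableEq X]

omit [Fintype X] [DecidableEq X] in
theorem abel_list (a v : X → ℝ) (hv : ∀ x, 0 ≤ v x) : ∀ (L : List X) (s M : ℝ),
    (∀ x ∈ L, v x ≤ M) → L.Pairwise (fun x y => v y ≤ v x) → 0 ≤ M →
    (∀ k ≤ L.length, 0 ≤ s + ((L.take k).map a).sum) →
    0 ≤ s * M + (L.map (fun x => a x * v x)).sum
  | [], s, M, _, _, hM0, h => by
      have := h 0 (Nat.zero_le _)
      simp at this
      simp
      positivity
  | x :: L, s, M, hM, hP, hM0, h => by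
      have hs : 0 ≤ s := by
        have := h 0 (Nat.zero_le _)
        simpa using this
      rw [List.pairwise_cons] at hP
      have ih := abel_list a v hv L (s + a x) (v x) (fun y hy => hP.1 y hy) hP.2 (hv x) (by
        intro k hk
        have := h (k + 1) (by simpa using hk)
        simpa [add_assoc] using this)
      have h1 : s * v x ≤ s * M := mul_le_mul_of_nonneg_left (hM x (by simp)) hs
      simp only [List.map_cons, List.sum_cons]
      nlinarith

/-- T8. -/
theorem exists_pre (wt : Finset X → X → ℝ) (hwt : ∀ H x, 0 ≤ wt H x) :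
    ∃ pre : Finset X → ℕ → Finset X, (∀ H k, pre H k ⊆ H) ∧ (∀ H, Monotone (pre H)) ∧
      (∀ H k, (pre H k).card ≤ k) ∧
      ∀ (H : Finset X) (P : X → Prop) [DecidablePred P] (c : ℕ),
        (∀ k ≤ H.card, c * ((pre H k).filter P).card ≤ k) →
        (c : ℝ) * ∑ x ∈ H.filter P, wt H x ≤ ∑ x ∈ H, wt H x := by
  classical
  let le : Finset X → X → X → Bool := fun H x y => decide (wt H y ≤ wt H x)
  let L : Finset X → List X := fun H => H.toList.mergeSort (le H)
  have hperm : ∀ H, (L H).Perm H.toList := fun H => List.mergeSort_perm _ _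
  have hnodup : ∀ H, (L H).Nodup := fun H => (hperm H).nodup_iff.2 H.nodup_toList
  have hmem : ∀ H x, x ∈ L H ↔ x ∈ H := fun H x => by rw [(hperm H).mem_iff, Finset.mem_toList]
  have hlen : ∀ H, (L H).length = H.card := fun H => by rw [(hperm H).length_eq, Finset.length_toList]
  have hsort : ∀ H, (L H).Pairwise (fun x y => wt H y ≤ wt H x) := by
    intro H
    have := List.pairwise_mergeSort (le := le H) (by
      intro a b c h1 h2
      simp only [le, decide_eq_true_eq] at *
      exact h2.trans h1) (by
      intro a b
      simp only [le, Bool.or_eq_true, decide_eq_true_eq]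
      exact le_total _ _) H.toList
    refine this.imp ?_
    intro a b hab
    simpa [le] using hab
  refine ⟨fun H k => ((L H).take k).toFinset, ?_, ?_, ?_, ?_⟩
  · intro H k x hx
    rw [List.mem_toFinset] at hx
    exact (hmem H x).1 (List.mem_of_mem_take hx)
  · intro H k k' hkk x hx
    simp only [List.mem_toFinset] at hx ⊢
    exact (List.take_subset_take_left _ hkk) hx
  · intro H k
    exact (List.toFinset_card_le _).trans (List.length_take_le _ _)
  · intro H P _ c hc
    have hfin : (L H).toFinset = H := by
      ext x
      rw [List.mem_toFinset, hmem]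
    have key := abel_list (fun x => 1 - (c : ℝ) * (if P x then 1 else 0)) (wt H) (hwt H) (L H) 0
      (∑ x ∈ H, wt H x) (fun x hx => Finset.single_le_sum (f := fun x => wt H x)
        (fun y _ => hwt H y) ((hmem H x).1 hx)) (hsort H) (Finset.sum_nonneg fun x _ => hwt H x) (by
        intro k hk
        rw [hlen] at hk
        have h1 := hc k hk
        have hnd : ((L H).take k).Nodup := (hnodup H).sublist (List.take_sublist _ _)
        rw [zero_add, ← List.sum_toFinset _ hnd, Finset.sum_sub_distrib, ← Finset.mul_sum,
          Finset.sum_boole]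
        have h2 : (((L H).take k).toFinset.card : ℝ) = k := by
          rw [List.toFinset_card_of_nodup hnd, List.length_take, hlen, min_eq_left hk]
        simp only [Finset.sum_const, nsmul_eq_mul, mul_one]
        rw [h2]
        have h3 : ((c * (((L H).take k).toFinset.filter P).card : ℕ) : ℝ) ≤ (k : ℕ) := by
          exact_mod_cast h1
        push_cast at h3
        linarith)
    rw [zero_mul, zero_add, ← List.sum_toFinset _ (hnodup H), hfin] at key
    have h4 : ∑ x ∈ H, (1 - (c : ℝ) * (if P x then 1 else 0)) * wt H x
        = ∑ x ∈ H, wt H x - c * ∑ x ∈ H.filter P, wt H x := by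
      rw [Finset.sum_filter, Finset.mul_sum, ← Finset.sum_sub_distrib]
      refine Finset.sum_congr rfl fun x _ => ?_
      split_ifs <;> ring
    rw [h4] at key
    linarith

end P034
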