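import Vale.Agent.P034.Defs

namespace P034

open Finset

/-- partial exponents -/
def Lw : ℕ → ℕ
  | 0 => 0
  | a + 1 => Lw a + 32 * 8 ^ (a + 1)

lemma Lw_le (a : ℕ) : Lw a ≤ 64 * 8 ^ a := by
  induction a with
  | zero => simp [Lw]
  | succ n ih =>
    rw [Lw, pow_succ]
    omega

/- T7 -/
theorem weights (p : ℝ) (hp : 0 < p) (hp1 : p < 1) (r : ℕ) :
    ∃ w : ℕ → ℝ, (∀ a ≤ r, 0 < w a) ∧ ∑ a ∈ range (r + 1), w a = 1 ∧
      (∀ a < r, w a ≤ 64 * 8 ^ (a + 1) * p) ∧
      ∑ a ∈ range r, ((4 ^ (a + 1) : ℕ) : ℝ) * (p * (∑ c ∈ Ioc a r, w c) / w a) ≤ 1 / 32 := by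
  set y : ℝ := 1 - p with hy
  have hy0 : 0 < y := by rw [hy]; linarith
  have hy1 : y < 1 := by rw [hy]; linarith
  set T : ℕ → ℝ := fun a => y ^ Lw a with hT
  have hTp : ∀ a, 0 < T a := fun a => pow_pos hy0 _
  have hTs : ∀ a, T (a + 1) = T a * y ^ (32 * 8 ^ (a + 1)) := by
    intro a
    simp only [hT, Lw, pow_add]
  have hlt : ∀ a, T (a + 1) < T a := by
    intro a
    rw [hTs]
    have h1 : y ^ (32 * 8 ^ (a + 1)) < 1 := pow_lt_one₀ hy0.le hy1 (by positivity)
    have := hTp a
    nlinarith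
  set w : ℕ → ℝ := fun a => if a < r then T a - T (a + 1) else T a with hw
  have hwl : ∀ a, a < r → w a = T a - T (a + 1) := fun a ha => by simp [hw, ha]
  have hsum : ∀ a, a ≤ r → ∑ c ∈ range a, w c = 1 - T a := by
    intro a
    induction a with
    | zero => intro _; simp [hT, Lw]
    | succ n ih =>
      intro h
      rw [sum_range_succ, ih (by omega), hwl n (by omega)]
      ring
  have hwr : w r = T r := by simp [hw]
  have htot : ∑ a ∈ range (r + 1), w a = 1 := by
    rw [sum_range_succ, hsum r le_rfl, hwr]; ring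
  refine ⟨w, ?_, htot, ?_, ?_⟩
  · intro a ha
    rcases ha.lt_or_eq with h | h
    · rw [hwl a h]
      have := hlt a
      linarith
    · rw [h, hwr]; exact hTp r
  · intro a ha
    rw [hwl a ha]
    have h1 : T a ≤ 1 := pow_le_one₀ hy0.le hy1.le
    have h2 : 1 - (Lw (a + 1) : ℝ) * p ≤ T (a + 1) := by
      have := one_add_mul_le_pow (a := -p) (by linarith) (Lw (a + 1))
      simp only [hT]
      rw [hy]
      have e : (1 + -p) = 1 - p := by ring
      rw [e] at this
      linarith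
    have h3 : (Lw (a + 1) : ℝ) ≤ 64 * 8 ^ (a + 1) := by exact_mod_cast Lw_le (a + 1)
    have h4 : (Lw (a + 1) : ℝ) * p ≤ 64 * 8 ^ (a + 1) * p := mul_le_mul_of_nonneg_right h3 hp.le
    linarith
  · have hterm : ∀ a ∈ range r, ((4 ^ (a + 1) : ℕ) : ℝ) * (p * (∑ c ∈ Ioc a r, w c) / w a) ≤
        (1 / 2) ^ (a + 1) / 32 := by
      intro a ha
      rw [mem_range] at ha
      have htail : ∑ c ∈ Ioc a r, w c = T (a + 1) := by
        have e : Ioc a r = Ico (a + 1) (r + 1) := by
          ext x; simp only [mem_Ioc, mem_Ico]; omega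
        rw [e, sum_Ico_eq_sub _ (by omega), htot, hsum (a + 1) (by omega)]
        ring
      set N : ℕ := 32 * 8 ^ (a + 1) with hN
      have hNp : (0 : ℝ) < N := by rw [hN]; positivity
      have hyN : 0 < y ^ N := pow_pos hy0 _
      have hyN1 : y ^ N < 1 := pow_lt_one₀ hy0.le hy1 (by rw [hN]; positivity)
      have hkey : (N : ℝ) * (p * y ^ N) ≤ 1 - y ^ N := by
        have h1 := one_add_mul_le_pow (a := p) (by linarith) N
        have h2 : y ^ N * (1 + p) ^ N ≤ 1 := by
          rw [← mul_pow]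
          apply pow_le_one₀ (by positivity)
          rw [hy]; nlinarith
        nlinarith
      have hwa : w a = T a * (1 - y ^ N) := by
        rw [hwl a ha, hTs]; ring
      rw [htail, hTs, hwa]
      have hTa := hTp a
      have h1 : 0 < 1 - y ^ N := by linarith
      have e1 : p * (T a * y ^ N) / (T a * (1 - y ^ N)) = p * y ^ N / (1 - y ^ N) := by
        field_simp
      rw [e1]
      have h2 : p * y ^ N / (1 - y ^ N) ≤ 1 / N := by
        rw [div_le_div_iff₀ h1 hNp]
        linarith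
      have h3 : (0 : ℝ) ≤ ((4 ^ (a + 1) : ℕ) : ℝ) := by positivity
      refine (mul_le_mul_of_nonneg_left h2 h3).trans (le_of_eq ?_)
      rw [hN]
      push_cast
      have e4 : (8 : ℝ) ^ (a + 1) = 4 ^ (a + 1) * 2 ^ (a + 1) := by
        rw [← mul_pow]; norm_num
      rw [e4]
      have : (4 : ℝ) ^ (a + 1) ≠ 0 := by positivity
      have : (2 : ℝ) ^ (a + 1) ≠ 0 := by positivity
      rw [one_div_pow]
      field_simp
    refine (sum_le_sum hterm).trans ?_
    have hgeo : ∀ n : ℕ, ∑ a ∈ range n, ((1 : ℝ) / 2) ^ (a + 1) / 32 = (1 - (1 / 2) ^ n) / 32 := by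
      intro n
      induction n with
      | zero => simp
      | succ n ih =>
        rw [sum_range_succ, ih, pow_succ]; ring
    rw [hgeo]
    have : (0 : ℝ) < (1 / 2) ^ r := by positivity
    linarith

end P034
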