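import Vale.Agent.P034.Repair
import Vale.Agent.P034.CountTotal
import Vale.Agent.P034.Weights
import Vale.Agent.P034.Order
import Vale.Agent.P034.GoodMass
import Vale.Agent.P034.Expect

namespace P034

open Finset

variable {X : Type} [Fintype X] [DecidableEq X]

theorem lam_nonneg' (g : Finset X → ℝ) (hg : ∀ S, 0 ≤ g S) (t : ℕ) (H : Finset X) (x : X) :
    0 ≤ lam g t H x := Finset.sum_nonneg (fun S _ => hg S)

/-- Some uniform layer carries its share of the fractional cover. -/
theorem exists_layer (g : Finset X → ℝ) (hg0 : ∀ S, 0 ≤ g S) (H : Finset X)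
    (hcov : 1 ≤ ∑ S ∈ H.powerset, g S) (h0 : g ∅ ≤ 1 / 2) :
    ∃ t, 1 ≤ t ∧ 1 ≤ (2 : ℝ) ^ (t + 1) * ∑ S ∈ H.powersetCard t, g S := by
  by_contra hcon
  push Not at hcon
  have h1 : ∑ S ∈ H.powerset, g S = ∑ t ∈ range (H.card + 1), ∑ S ∈ H.powersetCard t, g S := by
    rw [Finset.sum_powerset]
  rw [Finset.sum_range_succ'] at h1
  have h2 : ∑ S ∈ H.powersetCard 0, g S = g ∅ := by simp
  have h3 : ∀ t ∈ range H.card, ∑ S ∈ H.powersetCard (t + 1), g S ≤ (1 / 4 : ℝ) * (1 / 2) ^ t := by
    intro t _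
    have := hcon (t + 1) (by omega)
    have h4 : (0 : ℝ) < 2 ^ (t + 1 + 1) := by positivity
    have h5 : ∑ S ∈ H.powersetCard (t + 1), g S < 1 / 2 ^ (t + 1 + 1) := by
      rw [lt_div_iff₀ h4]
      linarith
    have h6 : (1 : ℝ) / 2 ^ (t + 1 + 1) = (1 / 4 : ℝ) * (1 / 2) ^ t := by
      rw [pow_succ, pow_succ, one_div_pow]
      field_simp
      norm_num
    linarith
  have h4 : ∑ t ∈ range H.card, ∑ S ∈ H.powersetCard (t + 1), g S
      ≤ ∑ t ∈ range H.card, (1 / 4 : ℝ) * (1 / 2) ^ t := Finset.sum_le_sum h3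
  rw [← Finset.mul_sum, geom_sum_eq (by norm_num)] at h4
  have h5 : (0 : ℝ) < (1 / 2 : ℝ) ^ H.card := by positivity
  have h6 : ((1 / 2 : ℝ) ^ H.card - 1) / (1 / 2 - 1) = 2 - 2 * (1 / 2 : ℝ) ^ H.card := by
    field_simp
    ring
  rw [h6] at h4
  rw [h2] at h1
  nlinarith

theorem frac_to_int (F : Set (Finset X)) (g : Finset X → ℝ) (hg0 : ∀ S, 0 ≤ g S)
    (hcov : ∀ H ∈ F, 1 ≤ ∑ S ∈ H.powerset, g S) (p : ℝ) (hp : 0 < p) (hp1 : p ≤ 1)
    (hgp : ∑ S, g S * p ^ S.card ≤ 1 / 2) : IsSmall (p / 2 ^ 19) F := by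
  classical
  by_contra hns
  obtain ⟨p1, hp1def⟩ : ∃ p1, p1 = p / 2 ^ 19 := ⟨_, rfl⟩
  rw [← hp1def] at hns
  have hp10 : 0 < p1 := by rw [hp1def]; positivity
  have hp11 : p1 < 1 := by
    rw [hp1def, div_lt_one (by positivity)]
    have : (1 : ℝ) < 2 ^ 19 := by norm_num
    linarith
  have h0 : g ∅ ≤ 1 / 2 := by
    refine le_trans ?_ hgp
    have h := Finset.single_le_sum (f := fun S : Finset X => g S * p ^ S.card)
      (fun S _ => mul_nonneg (hg0 S) (by positivity)) (Finset.mem_univ (∅ : Finset X))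
    simpa using h
  have ht : ∀ H ∈ F, ∃ t, 1 ≤ t ∧ 1 ≤ (2 : ℝ) ^ (t + 1) * ∑ S ∈ H.powersetCard t, g S :=
    fun H hH => exists_layer g hg0 H (hcov H hH) h0
  choose! tt htt1 htt2 using ht
  obtain ⟨pre, hsub, hmono, hcard, habel⟩ :=
    exists_pre (fun H x => lam g (tt H) H x) (fun H x => lam_nonneg' g hg0 _ H x)
  obtain ⟨D, hD, hrep⟩ := repair F pre (fun i => 4 ^ (i + 1)) hsub hmono hcard
  obtain ⟨r, hrdef⟩ : ∃ r, r = Fintype.card X + 1 := ⟨_, rfl⟩
  have hr : 4 * Fintype.card X ≤ 4 ^ r := by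
    rw [hrdef, pow_succ]
    have : Fintype.card X < 4 ^ Fintype.card X := Nat.lt_pow_self (by norm_num)
    omega
  obtain ⟨w, hw, hsum, hwp, hσ⟩ := weights p1 hp10 hp11 r
  have hct := count_total r (fun i => 4 ^ (i + 1)) D hD p1 hp10 w hw hsum hσ
  have hPnn : ∀ l ∈ labs X r, 0 ≤ ∏ x, w (l x) := by
    intro l hl
    refine Finset.prod_nonneg (fun x _ => (hw _ ?_).le)
    have := Fintype.mem_piFinset.1 hl x
    rw [Finset.mem_range] at this
    omega
  have hPsum : ∑ l ∈ labs X r, ∏ x, w (l x) = 1 := by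
    have h := Finset.prod_univ_sum (fun _ : X => range (r + 1)) (fun _ a => w a)
    rw [labs, ← h]
    simp [hsum]
  -- the two alternatives
  have key : ∀ l ∈ labs X r, (1 : ℝ) ≤
      3 * (∑ S ∈ univ.filter (fun S : Finset X => S.Nonempty ∧ SGood r l S),
        (2 : ℝ) ^ (S.card + 1) * g S) +
      2 * ∑ l' ∈ (labs X r).filter (fun l' => Adm D l' l ∧ l' ≠ l), p1 ^ (low l' l).card := by
    intro l hl
    have hlr : ∀ x, l x ≤ r := by
      intro x
      have := Fintype.mem_piFinset.1 hl x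
      rw [Finset.mem_range] at this
      omega
    have hYnn : 0 ≤ ∑ S ∈ univ.filter (fun S : Finset X => S.Nonempty ∧ SGood r l S),
        (2 : ℝ) ^ (S.card + 1) * g S :=
      Finset.sum_nonneg (fun S _ => mul_nonneg (by positivity) (hg0 S))
    have hCnn : 0 ≤ ∑ l' ∈ (labs X r).filter (fun l' => Adm D l' l ∧ l' ≠ l),
        p1 ^ (low l' l).card := Finset.sum_nonneg (fun S _ => by positivity)
    by_cases hex : ∃ H' ∈ F, Good pre (fun i => 4 ^ (i + 1)) l H'
    · obtain ⟨H', hH', hgood⟩ := hex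
      have h1 := good_mass g hg0 (tt H') r (htt1 H' hH') l hlr H' hr (by
        intro i
        have := habel H' (fun x => i < l x) (4 ^ (i + 1)) (fun k hk => hgood i k hk)
        exact_mod_cast this)
      have h2 := htt2 H' hH'
      have h3 : (2 : ℝ) ^ (tt H' + 1) *
          ∑ S ∈ (H'.powersetCard (tt H')).filter (fun S => SGood r l S), g S
          ≤ ∑ S ∈ univ.filter (fun S : Finset X => S.Nonempty ∧ SGood r l S),
        (2 : ℝ) ^ (S.card + 1) * g S := by
        rw [Finset.mul_sum]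
        calc ∑ S ∈ (H'.powersetCard (tt H')).filter (fun S => SGood r l S),
              (2 : ℝ) ^ (tt H' + 1) * g S
            = ∑ S ∈ (H'.powersetCard (tt H')).filter (fun S => SGood r l S),
              (2 : ℝ) ^ (S.card + 1) * g S := by
              refine Finset.sum_congr rfl (fun S hS => ?_)
              rw [Finset.mem_filter, Finset.mem_powersetCard] at hS
              rw [hS.1.2]
          _ ≤ _ := by
              refine Finset.sum_le_sum_of_subset_of_nonneg ?_
                (fun S _ _ => mul_nonneg (by positivity) (hg0 S))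
              intro S hS
              rw [Finset.mem_filter, Finset.mem_powersetCard] at hS
              rw [Finset.mem_filter]
              refine ⟨Finset.mem_univ _, ?_, hS.2⟩
              rw [← Finset.card_pos, hS.1.2]
              exact htt1 H' hH'
      have h4 : (0 : ℝ) < 2 ^ (tt H' + 1) := by positivity
      have h5 : (1 : ℝ) / 3 ≤ (2 : ℝ) ^ (tt H' + 1) *
          ∑ S ∈ (H'.powersetCard (tt H')).filter (fun S => SGood r l S), g S := by
        calc (1 : ℝ) / 3 ≤ (1 / 3) * ((2 : ℝ) ^ (tt H' + 1) *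
              ∑ S ∈ H'.powersetCard (tt H'), g S) := by linarith
          _ = (2 : ℝ) ^ (tt H' + 1) * ((1 / 3) * ∑ S ∈ H'.powersetCard (tt H'), g S) := by ring
          _ ≤ _ := mul_le_mul_of_nonneg_left h1 h4.le
      linarith
    · have hcost : 1 / 2 < ∑ l' ∈ (labs X r).filter (fun l' => Adm D l' l ∧ l' ≠ l),
          p1 ^ (low l' l).card := by
        by_contra hle
        push Not at hle
        apply hns
        refine ⟨((labs X r).filter (fun l' => Adm D l' l ∧ l' ≠ l)).image (fun l' => low l' l),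
          ?_, ?_⟩
        · intro H hH
          obtain ⟨l', hadm, hlow, hgd⟩ := hrep l H hH
          refine ⟨low l' l, ?_, hlow⟩
          refine Finset.mem_image_of_mem (fun l' => low l' l) ?_
          rw [Finset.mem_filter]
          refine ⟨?_, hadm, fun h => hex (hgd h)⟩
          rw [labs, Fintype.mem_piFinset]
          intro x
          rw [Finset.mem_range]
          have := hadm.1 x
          have := hlr x
          omega
        · refine le_trans ?_ hle
          rw [cost]
          refine le_trans (Finset.sum_image_le_of_nonneg ?_) le_rfl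
          intro S _
          positivity
      linarith
  -- expectation of Y
  have hEY : ∑ l ∈ labs X r, (∏ x, w (l x)) *
      (∑ S ∈ univ.filter (fun S : Finset X => S.Nonempty ∧ SGood r l S),
        (2 : ℝ) ^ (S.card + 1) * g S) ≤ 1 / 16 := by
    have h1 : ∑ l ∈ labs X r, (∏ x, w (l x)) *
      (∑ S ∈ univ.filter (fun S : Finset X => S.Nonempty ∧ SGood r l S),
        (2 : ℝ) ^ (S.card + 1) * g S)
        = ∑ S ∈ univ.filter (fun S : Finset X => S.Nonempty), ((2 : ℝ) ^ (S.card + 1) * g S) *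
          ∑ l ∈ (labs X r).filter (fun l => SGood r l S), ∏ x, w (l x) := by
      have e1 : ∀ l ∈ labs X r, (∏ x, w (l x)) *
          (∑ S ∈ univ.filter (fun S : Finset X => S.Nonempty ∧ SGood r l S),
            (2 : ℝ) ^ (S.card + 1) * g S)
          = ∑ S ∈ univ.filter (fun S : Finset X => S.Nonempty),
            (if SGood r l S then (2 : ℝ) ^ (S.card + 1) * g S * ∏ x, w (l x) else 0) := by
        intro l _
        rw [← Finset.filter_filter, Finset.sum_filter (fun S => SGood r l S), Finset.mul_sum]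
        refine Finset.sum_congr rfl (fun S _ => ?_)
        split_ifs
        · ring
        · simp
      rw [Finset.sum_congr rfl e1, Finset.sum_comm]
      refine Finset.sum_congr rfl (fun S _ => ?_)
      rw [Finset.mul_sum, Finset.sum_filter]
    rw [h1]
    have h2 : ∀ S ∈ univ.filter (fun S : Finset X => S.Nonempty), ((2 : ℝ) ^ (S.card + 1) * g S) *
          (∑ l ∈ (labs X r).filter (fun l => SGood r l S), ∏ x, w (l x))
          ≤ (1 / 8) * (g S * p ^ S.card) := by
      intro S hS
      rw [Finset.mem_filter] at hS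
      have hc : 1 ≤ S.card := Finset.card_pos.2 hS.2
      have h3 := expect_good r w hw hsum p1 hp10.le hwp S
      have h4 : 0 ≤ (2 : ℝ) ^ (S.card + 1) * g S := mul_nonneg (by positivity) (hg0 S)
      refine le_trans (mul_le_mul_of_nonneg_left h3 h4) ?_
      have h5 : (16384 : ℝ) * p1 = p / 32 := by rw [hp1def]; ring
      rw [h5]
      have h6 : (2 : ℝ) ^ (S.card + 1) * g S * (p / 32) ^ S.card
          = (2 * (1 / 16 : ℝ) ^ S.card) * (g S * p ^ S.card) := by
        rw [pow_succ, div_pow, one_div_pow]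
        have : (32 : ℝ) ^ S.card = 2 ^ S.card * 16 ^ S.card := by
          rw [← mul_pow]; norm_num
        rw [this]
        field_simp
      rw [h6]
      refine mul_le_mul_of_nonneg_right ?_ (mul_nonneg (hg0 S) (by positivity))
      have h7 : (1 / 16 : ℝ) ^ S.card ≤ (1 / 16 : ℝ) ^ 1 :=
        pow_le_pow_of_le_one (by norm_num) (by norm_num) hc
      linarith
    refine le_trans (Finset.sum_le_sum h2) ?_
    rw [← Finset.mul_sum]
    have h8 : ∑ S ∈ univ.filter (fun S : Finset X => S.Nonempty), g S * p ^ S.card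
        ≤ ∑ S, g S * p ^ S.card :=
      Finset.sum_le_sum_of_subset_of_nonneg (Finset.filter_subset _ _)
        (fun S _ _ => mul_nonneg (hg0 S) (by positivity))
    linarith
  have hfin : (1 : ℝ) ≤ 3 * (1 / 16) + 2 * (1 / 8) := by
    calc (1 : ℝ) = ∑ l ∈ labs X r, (∏ x, w (l x)) * 1 := by simp [hPsum]
      _ ≤ ∑ l ∈ labs X r, (∏ x, w (l x)) *
        (3 * (∑ S ∈ univ.filter (fun S : Finset X => S.Nonempty ∧ SGood r l S),
          (2 : ℝ) ^ (S.card + 1) * g S) +
        2 * ∑ l' ∈ (labs X r).filter (fun l' => Adm D l' l ∧ l' ≠ l), p1 ^ (low l' l).card) :=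
          Finset.sum_le_sum (fun l hl => mul_le_mul_of_nonneg_left (key l hl) (hPnn l hl))
      _ = 3 * (∑ l ∈ labs X r, (∏ x, w (l x)) *
            (∑ S ∈ univ.filter (fun S : Finset X => S.Nonempty ∧ SGood r l S),
              (2 : ℝ) ^ (S.card + 1) * g S)) +
          2 * (∑ l ∈ labs X r, (∏ x, w (l x)) *
            ∑ l' ∈ (labs X r).filter (fun l' => Adm D l' l ∧ l' ≠ l),
              p1 ^ (low l' l).card) := by
          rw [Finset.mul_sum, Finset.mul_sum, ← Finset.sum_add_distrib]
          refine Finset.sum_congr rfl (fun l _ => ?_)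
          ring
      _ ≤ 3 * (1 / 16) + 2 * (1 / 8) := by linarith
  norm_num at hfin

end P034
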