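import Vale.Agent.P034.Defs

namespace P034

open Finset

variable {X : Type} [Fintype X] [DecidableEq X]

/- T1 -/
theorem rep_le (pre : Finset X → ℕ → Finset X) (b : ℕ → ℕ) (l : X → ℕ) (H : Finset X) (x : X) :
    rep pre b l H x ≤ l x := by
  classical
  unfold rep
  split_ifs with h
  · exact (Nat.find_spec h).1.le
  · exact le_rfl

theorem rep_mem (pre : Finset X → ℕ → Finset X) (b : ℕ → ℕ) (l : X → ℕ) (H : Finset X) (x : X)
    (hx : rep pre b l H x < l x) : x ∈ pre H (kk pre b l H (rep pre b l H x)) := by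
  classical
  by_cases h : ∃ i, i < l x ∧ x ∈ pre H (kk pre b l H i)
  · have h1 : rep pre b l H x = Nat.find h := by
      unfold rep
      rw [dif_pos h]
    rw [h1]
    exact (Nat.find_spec h).2
  · exfalso
    unfold rep at hx
    rw [dif_neg h] at hx
    exact lt_irrefl _ hx

theorem rep_le_of_mem (pre : Finset X → ℕ → Finset X) (b : ℕ → ℕ) (l : X → ℕ) (H : Finset X)
    (x : X) (i : ℕ) (hi : x ∈ pre H (kk pre b l H i)) : rep pre b l H x ≤ i := by
  classical
  rcases le_or_gt (l x) i with h | h
  · exact (rep_le pre b l H x).trans h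
  · have h3 : ∃ i, i < l x ∧ x ∈ pre H (kk pre b l H i) := ⟨i, h, hi⟩
    unfold rep
    rw [dif_pos h3]
    exact Nat.find_min' _ ⟨h, hi⟩

/- T2 -/
theorem rep_comp (pre : Finset X → ℕ → Finset X) (b : ℕ → ℕ)
    (hmono : ∀ H, Monotone (pre H)) (l : X → ℕ) (H : Finset X) :
    Comp pre b (rep pre b l H) (cross (rep pre b l H) l) H := by
  classical
  intro i
  refine ⟨(range (i + 1)).sup (kk pre b l H), ?_, ?_⟩
  · intro x hx
    obtain ⟨j, hj, hjk⟩ := exists_mem_eq_sup (range (i + 1)) ⟨0, by simp⟩ (kk pre b l H)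
    rw [hjk] at hx
    rw [mem_range] at hj
    exact (rep_le_of_mem pre b l H x j hx).trans (by omega)
  · intro k hk hkH
    have hkj : ∀ j ≤ i, kk pre b l H j < k := by
      intro j hj
      refine lt_of_le_of_lt ?_ hk
      exact le_sup (f := kk pre b l H) (mem_range.2 (by omega))
    have h1 : b i * miss pre l H i k ≤ k := by
      have := Nat.findGreatest_is_greatest (P := fun k => k < b i * miss pre l H i k)
        (n := H.card) (k := k) (hkj i le_rfl) hkH
      exact not_lt.1 this
    refine le_trans (Nat.mul_le_mul_left _ ?_) h1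
    unfold miss cross
    rw [← card_union_of_disjoint]
    · apply card_le_card
      intro x hx
      rw [mem_union, mem_filter, mem_filter] at hx
      rw [mem_filter]
      rcases hx with ⟨h2, h3⟩ | ⟨_, h2, h3⟩
      · exact ⟨h2, lt_of_lt_of_le h3 (rep_le pre b l H x)⟩
      · refine ⟨?_, h3⟩
        have h4 := rep_mem pre b l H x (lt_of_le_of_lt h2 h3)
        exact hmono H (hkj _ h2).le h4
    · rw [disjoint_left]
      intro x hx hx'
      rw [mem_filter] at hx hx'
      have := hx.2
      have := hx'.2.1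
      omega

end P034
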