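import Vale.Agent.P034.RepA

namespace P034

open Finset

variable {X : Type} [Fintype X] [DecidableEq X]

/- T3 -/
theorem comp_rep (pre : Finset X → ℕ → Finset X) (b : ℕ → ℕ)
    (hmono : ∀ H, Monotone (pre H)) (l' l : X → ℕ) (hl : ∀ x, l' x ≤ l x) (H : Finset X)
    (hc : Comp pre b l' (cross l' l) H) :
    (∀ x, l' x ≤ rep pre b l H x) ∧ ∀ i, kk pre b l H i ≤ b i * cross l' l i := by
  classical
  have hbad : ∀ i, kk pre b l H i ≠ 0 →
      kk pre b l H i < b i * miss pre l H i (kk pre b l H i) := by
    intro i hne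
    exact Nat.findGreatest_of_ne_zero (P := fun k => k < b i * miss pre l H i k)
      (n := H.card) rfl hne
  have hkey : ∀ i, ∃ K, kk pre b l H i ≤ K ∧ (∀ x ∈ pre H K, l' x ≤ i) := by
    intro i
    obtain ⟨K, hK1, hK2⟩ := hc i
    refine ⟨K, ?_, hK1⟩
    by_contra hlt
    rw [not_le] at hlt
    have h1 := hbad i (by omega)
    have h2 := hK2 _ hlt (Nat.findGreatest_le _)
    have h3 : miss pre l H i (kk pre b l H i) ≤
        miss pre l' H i (kk pre b l H i) + cross l' l i := by
      unfold miss cross
      refine le_trans (card_le_card ?_) (card_union_le _ _)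
      intro x hx
      rw [mem_filter] at hx
      rw [mem_union, mem_filter, mem_filter]
      rcases le_or_gt (l' x) i with h | h
      · exact Or.inr ⟨mem_univ _, h, hx.2⟩
      · exact Or.inl ⟨hx.1, h⟩
    have h4 := Nat.mul_le_mul_left (b i) h3
    omega
  constructor
  · intro x
    rcases (rep_le pre b l H x).lt_or_eq with h | h
    · obtain ⟨K, hK1, hK2⟩ := hkey (rep pre b l H x)
      exact hK2 x (hmono H hK1 (rep_mem pre b l H x h))
    · rw [h]; exact hl x
  · intro i
    rcases Nat.eq_zero_or_pos (kk pre b l H i) with h | h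
    · rw [h]; exact Nat.zero_le _
    · have h1 := hbad i (by omega)
      obtain ⟨K, hK1, hK2⟩ := hkey i
      have h3 : miss pre l H i (kk pre b l H i) ≤ cross l' l i := by
        unfold miss cross
        apply card_le_card
        intro x hx
        rw [mem_filter] at hx
        exact mem_filter.2 ⟨mem_univ _, hK2 x (hmono H hK1 hx.1), hx.2⟩
      have h4 := Nat.mul_le_mul_left (b i) h3
      omega

end P034
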