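import Vale.Agent.P034.RepB

namespace P034

open Finset

variable {X : Type} [Fintype X] [DecidableEq X]

/- T4 -/
theorem repair (F : Set (Finset X)) (pre : Finset X → ℕ → Finset X) (b : ℕ → ℕ)
    (hsub : ∀ H k, pre H k ⊆ H) (hmono : ∀ H, Monotone (pre H))
    (hcard : ∀ H k, (pre H k).card ≤ k) :
    ∃ D : (X → ℕ) → (ℕ → ℕ) → ℕ → Finset X,
      (∀ l' s i, (D l' s i).card ≤ b i * s i) ∧
      ∀ (l : X → ℕ), ∀ H ∈ F, ∃ l' : X → ℕ, Adm D l' l ∧ low l' l ⊆ H ∧
        (l' = l → ∃ H' ∈ F, Good pre b l H') := by
  classical
  refine ⟨fun l' s i => if h : ∃ H ∈ F, Comp pre b l' s H then pre h.choose (b i * s i) else ∅,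
    ?_, ?_⟩
  · intro l' s i
    dsimp only
    split_ifs with h
    · exact hcard _ _
    · simp
  · intro l H hH
    -- minimise the total drop
    let P : ℕ → Prop := fun n => ∃ H' ∈ F, low (rep pre b l H') l ⊆ H ∧
      ∑ x, (l x - rep pre b l H' x) = n
    have hP : ∃ n, P n := by
      refine ⟨_, H, hH, ?_, rfl⟩
      intro x hx
      have hx' : rep pre b l H x < l x := (mem_filter.1 hx).2
      exact hsub _ _ (rep_mem pre b l H x hx')
    obtain ⟨H', hH', hlow, hsum⟩ := Nat.find_spec hP
    have hmin : ∀ H'' ∈ F, low (rep pre b l H'') l ⊆ H →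
        ∑ x, (l x - rep pre b l H' x) ≤ ∑ x, (l x - rep pre b l H'' x) := by
      intro H'' hH'' hl''
      rw [hsum]
      exact Nat.find_min' hP ⟨H'', hH'', hl'', rfl⟩
    set l' := rep pre b l H' with hl'
    have hle : ∀ x, l' x ≤ l x := rep_le pre b l H'
    have hex : ∃ H ∈ F, Comp pre b l' (cross l' l) H := ⟨H', hH', rep_comp pre b hmono l H'⟩
    refine ⟨l', ⟨hle, ?_⟩, hlow, ?_⟩
    · obtain ⟨hF'', hC''⟩ := hex.choose_spec
      set H'' := hex.choose with hH''
      obtain ⟨hr1, hr2⟩ := comp_rep pre b hmono l' l hle H'' hC''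
      have hlow'' : low (rep pre b l H'') l ⊆ H := by
        intro x hx
        apply hlow
        have hx' : rep pre b l H'' x < l x := (mem_filter.1 hx).2
        exact mem_filter.2 ⟨mem_univ _, lt_of_le_of_lt (hr1 x) hx'⟩
      have hs := hmin H'' hF'' hlow''
      have hterm : ∀ x ∈ (univ : Finset X), l x - rep pre b l H'' x ≤ l x - l' x := by
        intro x _
        have := hr1 x
        omega
      have heq : ∀ x ∈ (univ : Finset X), l x - rep pre b l H'' x = l x - l' x :=
        (Finset.sum_eq_sum_iff_of_le hterm).1 (le_antisymm (Finset.sum_le_sum hterm) hs)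
      have hrep : ∀ x, rep pre b l H'' x = l' x := by
        intro x
        have h1 := heq x (mem_univ _)
        have h2 := rep_le pre b l H'' x
        have h3 := hle x
        omega
      intro x hx
      have h1 : x ∈ pre H'' (kk pre b l H'' (l' x)) := by
        have := rep_mem pre b l H'' x (by rw [hrep]; exact hx)
        rwa [hrep] at this
      have h2 := hmono H'' (hr2 (l' x)) h1
      dsimp only
      rw [dif_pos hex]
      exact h2
    · intro heq
      refine ⟨H', hH', ?_⟩
      intro i k hk
      have hkk : kk pre b l H' i = 0 := by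
        by_contra hne
        have h1 : kk pre b l H' i < b i * miss pre l H' i (kk pre b l H' i) :=
          Nat.findGreatest_of_ne_zero (P := fun k => k < b i * miss pre l H' i k)
            (n := H'.card) rfl hne
        have h2 : 0 < miss pre l H' i (kk pre b l H' i) := by
          rcases Nat.eq_zero_or_pos (miss pre l H' i (kk pre b l H' i)) with h | h
          · rw [h] at h1; omega
          · exact h
        obtain ⟨x, hx⟩ := card_pos.1 h2
        rw [mem_filter] at hx
        have h3 : ∃ i, i < l x ∧ x ∈ pre H' (kk pre b l H' i) := ⟨i, hx.2, hx.1⟩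
        have h4 : l' x ≤ i := by
          rw [hl']
          unfold rep
          rw [dif_pos h3]
          exact Nat.find_min' _ ⟨hx.2, hx.1⟩
        rw [heq] at h4
        exact absurd hx.2 (by omega)
      rcases Nat.eq_zero_or_pos k with h0 | h0
      · subst h0
        have : pre H' 0 = ∅ := card_eq_zero.1 (Nat.le_zero.1 (hcard H' 0))
        unfold miss
        rw [this]
        simp
      · have := Nat.findGreatest_is_greatest (P := fun k => k < b i * miss pre l H' i k)
            (n := H'.card) (k := k) (by unfold kk at hkk; omega) hk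
        exact not_lt.1 this

end P034
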